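import Vale.Agent.P246.R2.H31.TopChi
import Vale.Agent.P246.R2.H429.Defs4

/-! # P246: ROW TW5, the algebraic complex of the covering of the wedge -/

set_option linter.all false

namespace Vale.Agent.P246.R2.H696

open Topology Metric Set Vale.Agent.P246 Vale.Agent.P246.T Vale.Agent.P246.H429 CategoryTheory A1x

section Transport

variable {G E F : Type} [Group G] [TopologicalSpace E] [MulAction G E] [ContinuousConstSMul G E]
  [TopologicalSpace F] [MulAction G F] [ContinuousConstSMul G F]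

/-- the map of chains -/
noncomputable def Lam (ι : C(E, F)) (h : ∀ (g : G) (e : E), ι (g • e) = g • ι e) (n : ℕ) :
    SC G n E →ₗ[ZG G] SC G n F where
  toFun c := SC.mk G (push ι n c.un)
  map_add' a b := map_add (push ι n) a.un b.un
  map_smul' r c := push_smul ι h n r c

variable {ι : C(E, F)} {h : ∀ (g : G) (e : E), ι (g • e) = g • ι e}

theorem Lam_inj (hι : Function.Injective ι) (n : ℕ) : Function.Injective (Lam ι h n) :=
  fun a b hab => PR.push_injective hι n hab

theorem Lam_d (n : ℕ) (c : SC G (n + 1) E) :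
    SC.d G n F (Lam ι h (n + 1) c) = Lam ι h n (SC.d G n E c) :=
  push_bd ι n c.un

theorem Lam_range (hι : IsEmbedding ι) {n : ℕ} {x : SC G n F} (hx : x.un ∈ Con (range ι) n) :
    ∃ c, Lam ι h n c = x := by
  have key : ∀ c : Ch n F, c ∈ Con (range ι) n → ∃ b : Ch n E, push ι n b = c := by
    intro c hc
    refine PR.Con_ind (P := fun c => ∃ b : Ch n E, push ι n b = c) ⟨0, map_zero _⟩ ?_ ?_ hc
    · rintro a b ⟨a', rfl⟩ ⟨b', rfl⟩
      exact ⟨a' + b', map_add _ _ _⟩
    · intro m σ hσ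
      let τ : C(Dl (n + 1), range ι) := ⟨fun x => ⟨σ x, hσ x⟩, by fun_prop⟩
      let e : (range ι : Set F) ≃ₜ E := hι.toHomeomorph.symm
      let u : C(Dl (n + 1), E) := ⟨fun x => e (τ x), by fun_prop⟩
      refine ⟨Finsupp.single u m, ?_⟩
      rw [push_single]
      congr 1
      ext x
      have h1 : hι.toHomeomorph (e (τ x)) = τ x := hι.toHomeomorph.apply_symm_apply _
      exact congrArg Subtype.val h1
  obtain ⟨b, hb⟩ := key x.un hx
  exact ⟨SC.mk G b, hb⟩

theorem Lam_cyc (hι : Function.Injective ι) {n : ℕ} (c : SC G n E) :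
    DCyc (fun n => SC G n F) (fun n => SC.d G n F) n (Lam ι h n c) ↔
      DCyc (fun n => SC G n E) (fun n => SC.d G n E) n c := by
  cases n with
  | zero => exact Iff.rfl
  | succ n =>
    change SC.d G n F (Lam ι h (n + 1) c) = 0 ↔ SC.d G n E c = 0
    rw [Lam_d]
    constructor
    · intro h0
      exact Lam_inj hι n (h0.trans (map_zero _).symm)
    · intro h0
      rw [h0, map_zero]

/-- the model is transported -/
theorem transport {W : Type} [TopologicalSpace W] [T2Space W] {q : C(F, W)}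
    (hq : IsQuotientCoveringMap q G) {C : Set W} (hι : IsEmbedding ι) (hran : range ι = q ⁻¹' C)
    {P : ∀ n, Submodule (ZG G) (SC G n E)}
    (hP : IsFinModel (fun n => SC G n E) (fun n => SC.d G n E) (fun _ => ⊤) P) :
    IsFinModel (fun n => SC G n F) (fun n => SC.d G n F) (Step.SA hq C)
      (fun n => (P n).map (Lam ι h n)) where
  le := by
    rintro n x ⟨c, hc, rfl⟩
    rw [Step.mem_SA]
    refine push_mem (A := univ) (fun e _ => ?_) (PR.Con_univ _)
    rw [← hran]
    exact mem_range_self e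
  d_mem := by
    rintro n x ⟨c, hc, rfl⟩
    rw [Lam_d]
    exact ⟨_, hP.d_mem n c hc, rfl⟩
  inj := by
    rintro n x ⟨c, hc, rfl⟩ hcyc ⟨y, hy, hyx⟩
    rw [Lam_cyc hι.injective] at hcyc
    rw [Step.mem_SA, ← hran] at hy
    obtain ⟨b, rfl⟩ := Lam_range (h := h) hι hy
    rw [Lam_d] at hyx
    obtain ⟨z, hz, hzc⟩ := hP.inj n c hc hcyc ⟨b, trivial, Lam_inj hι.injective n hyx⟩
    refine ⟨Lam ι h (n + 1) z, ⟨z, hz, rfl⟩, ?_⟩
    rw [Lam_d]
    exact congrArg _ hzc
  surj := by
    intro n x hx hcyc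
    rw [Step.mem_SA, ← hran] at hx
    obtain ⟨c, rfl⟩ := Lam_range (h := h) hι hx
    rw [Lam_cyc hι.injective] at hcyc
    obtain ⟨y, hy, hyc, z, -, he⟩ := hP.surj n c trivial hcyc
    refine ⟨Lam ι h n y, ⟨y, hy, rfl⟩, (Lam_cyc hι.injective y).2 hyc, Lam ι h (n + 1) z, ?_, ?_⟩
    · rw [Step.mem_SA]
      refine push_mem (A := univ) (fun e _ => ?_) (PR.Con_univ _)
      rw [← hran]
      exact mem_range_self e
    · rw [Lam_d, ← map_add]
      exact congrArg _ he
  free := fun n => by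
    have := hP.free n
    exact Module.Free.of_equiv (Submodule.equivMapOfInjective (Lam ι h n) (Lam_inj hι.injective n)
      (P n))
  fin := fun n => by
    have := hP.fin n
    exact Module.Finite.equiv (Submodule.equivMapOfInjective (Lam ι h n)
      (Lam_inj hι.injective n) (P n))
  bdd := by
    obtain ⟨N, hN⟩ := hP.bdd
    refine ⟨N, fun n hn => ?_⟩
    rw [hN n hn, Submodule.map_bot]

end Transport

section Sum

variable {R M : Type} [Ring R] [AddCommGroup M] [Module R M]

/-- the sum of two disjoint submodules -/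
theorem exists_sup_equiv {A Z : Submodule R M} (hd : Disjoint A Z) :
    ∃ u : (A ⊔ Z : Submodule R M) ≃ₗ[R] A × Z, ∀ (a : A) (x : (A ⊔ Z : Submodule R M)),
      x.1 = a.1 → u x = (a, 0) := by
  let f : (A × Z) →ₗ[R] M := A.subtype.coprod Z.subtype
  have hf : Function.Injective f := by
    rw [injective_iff_map_eq_zero]
    rintro ⟨a, z⟩ h0
    have h1 : (a : M) + z = 0 := h0
    have h2 : (a : M) = -z := eq_neg_of_add_eq_zero_left h1
    have h3 : (a : M) ∈ Z := by rw [h2]; exact Z.neg_mem z.2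
    have h4 : (a : M) = 0 := (Submodule.disjoint_def.1 hd) _ a.2 h3
    have h5 : (z : M) = 0 := by rw [h4, zero_add] at h1; exact h1
    exact Prod.ext (Subtype.ext h4) (Subtype.ext h5)
  have hrange : LinearMap.range f = A ⊔ Z := by
    rw [LinearMap.range_coprod, Submodule.range_subtype, Submodule.range_subtype]
  let e := (LinearEquiv.ofInjective f hf).trans (LinearEquiv.ofEq _ _ hrange)
  refine ⟨e.symm, fun a x hx => ?_⟩
  rw [LinearEquiv.symm_apply_eq]
  apply Subtype.ext
  have h1 : (e (a, 0)).1 = a.1 + (0 : Z).1 := rfl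
  rw [h1, hx]
  simp

end Sum

theorem sum_update (ν : ℕ → ℕ) (t N : ℕ) (hN : ∀ i, N ≤ i → ν i = 0) :
    (∑ i ∈ Finset.range N, (-1 : ℤ) ^ i * ν i + t) =
      ∑ i ∈ Finset.range (max N 3), (-1 : ℤ) ^ i * (Function.update ν 2 (ν 2 + t) i : ℕ) := by
  have h1 : ∑ i ∈ Finset.range N, (-1 : ℤ) ^ i * ν i =
      ∑ i ∈ Finset.range (max N 3), (-1 : ℤ) ^ i * ν i := by
    refine Finset.sum_subset (Finset.range_mono (le_max_left _ _)) fun i _ hi => ?_
    rw [Finset.mem_range, not_lt] at hi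
    rw [hN i hi, Nat.cast_zero, mul_zero]
  have h2 : ∀ i, (-1 : ℤ) ^ i * (Function.update ν 2 (ν 2 + t) i : ℕ) =
      (-1 : ℤ) ^ i * ν i + if i = 2 then (t : ℤ) else 0 := by
    intro i
    by_cases hi : i = 2
    · subst hi
      rw [Function.update_self, if_pos rfl]
      push_cast
      ring
    · rw [Function.update_of_ne hi, if_neg hi, add_zero]
  rw [h1, Finset.sum_congr rfl fun i _ => h2 i, Finset.sum_add_distrib, Finset.sum_ite_eq',
    if_pos (Finset.mem_range.2 (lt_of_lt_of_le (by norm_num) (le_max_right N 3)))]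

/-- ROW TW5 -/
theorem algW : SpecAlgW := by
  intro hCh G W E F _ _ _ _ _ _ _ _ _ _ _ q hq C t ι hC hSph hemb hran hequi hhigh h3 hfree P ν N
    hP hν hN
  classical
  have hinj := hemb.injective
  have hP' := transport (h := hequi) hq hemb hran hP
  obtain ⟨Z, ⟨uZ⟩, hZd, hdis, hQ⟩ := hCh G W F q hq C t hC hSph _ hP'
  set P' : ∀ n, Submodule (ZG G) (SC G n F) := fun n => (P n).map (Lam ι hequi n) with hP'def
  set Q : ∀ n, Submodule (ZG G) (SC G n F) := Function.update P' 2 (P' 2 ⊔ Z) with hQdef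
  have hQ2 : Q 2 = P' 2 ⊔ Z := Function.update_self _ _ _
  have hQn : ∀ n, n ≠ 2 → Q n = P' n := fun n hn => Function.update_of_ne hn _ _
  let κ : ∀ n, P n ≃ₗ[ZG G] P' n := fun n =>
    Submodule.equivMapOfInjective (Lam ι hequi n) (Lam_inj hinj n) (P n)
  have hκ : ∀ n (x : P n), (κ n x).1 = Lam ι hequi n x.1 := fun n x => rfl
  obtain ⟨u2, hu2⟩ := exists_sup_equiv hdis
  let v2 : Q 2 ≃ₗ[ZG G] P' 2 × Z := (LinearEquiv.ofEq _ _ hQ2).trans u2
  have hv2 : ∀ (a : P' 2) (x : Q 2), x.1 = a.1 → v2 x = (a, 0) := fun a x hx => hu2 a _ hx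
  let w3 : P 3 ≃ₗ[ZG G] Q 3 := (κ 3).trans (LinearEquiv.ofEq _ _ (hQn 3 (by norm_num)).symm)
  have hw3 : ∀ x : P 3, (w3 x).1 = Lam ι hequi 3 x.1 := fun x => rfl
  let w4 : P 4 ≃ₗ[ZG G] Q 4 := (κ 4).trans (LinearEquiv.ofEq _ _ (hQn 4 (by norm_num)).symm)
  have hw4 : ∀ x : P 4, (w4 x).1 = Lam ι hequi 4 x.1 := fun x => rfl
  have hdE := A1x.data (fun c => A1h.aug_iff c) (fun c h => A1h.h_one c h) hfree hhigh h3 hP
  have hz := A1x.hzero (G := G) (E := F) (fun c => A1h.aug_iff c) hQ.toIsModel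
  have hdat : D2Data G (A1x.CC (S := fun n => SC G n F) (d := fun n => SC.d G n F) A1x.d_d
      hQ.toIsModel) :=
    { free := hQ.free
      finite := hQ.fin
      bounded := by
        obtain ⟨N, hN⟩ := hQ.bdd
        refine ⟨N, fun i hi => ?_⟩
        have h := hN i hi
        change Subsingleton (Q i)
        rw [h]
        infer_instance
      homology_zero := by
        obtain ⟨ε, k1, k2, k3⟩ := hz
        refine ⟨ε, k1, k2, fun x => (k3 x).trans ?_⟩
        constructor
        · rintro ⟨y, hy⟩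
          exact ⟨y, (A1x.CC_d A1x.d_d hQ.toIsModel 0 y).trans hy⟩
        · rintro ⟨y, hy⟩
          exact ⟨y, (A1x.CC_d A1x.d_d hQ.toIsModel 0 y).symm.trans hy⟩
      homology_one := by
        rw [exactAt_succ_iff]
        intro x hx
        have hx' : dP hQ.toIsModel 0 x = 0 := (A1x.CC_d A1x.d_d hQ.toIsModel 0 x).symm.trans hx
        have hx2 : SC.d G 0 F (x : Q 1).1 = 0 := congrArg Subtype.val hx'
        obtain ⟨b, hb⟩ := A1h.h_one (x : Q 1).1.un hx2
        obtain ⟨y, hy, h⟩ := hQ.inj 1 (x : Q 1).1 (x : Q 1).2 hx2 ⟨SC.mk G b, trivial, hb⟩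
        exact ⟨⟨y, hy⟩, (A1x.CC_d A1x.d_d hQ.toIsModel 1 ⟨y, hy⟩).trans (Subtype.ext h)⟩
      homology_high := by
        intro i hi
        obtain ⟨j, rfl⟩ : ∃ j, i = j + 3 := ⟨i - 3, by omega⟩
        rw [exactAt_succ_iff]
        intro x hx
        have hx' : dP hQ.toIsModel (j + 2) x = 0 :=
          (A1x.CC_d A1x.d_d hQ.toIsModel (j + 2) x).symm.trans hx
        have hx2 : SC.d G (j + 2) F (x : Q (j + 3)).1 = 0 := congrArg Subtype.val hx'
        have hx3 : (x : Q (j + 3)).1 ∈ P' (j + 3) := by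
          rw [← hQn (j + 3) (by omega)]
          exact (x : Q (j + 3)).2
        obtain ⟨c, hc, hcx⟩ := hx3
        have hc0 : SC.d G (j + 2) E c = 0 := by
          rw [← hcx, Lam_d] at hx2
          exact Lam_inj hinj _ (hx2.trans (map_zero _).symm)
        obtain ⟨b, hb⟩ := hhigh (j + 2) (by omega) c.un hc0
        obtain ⟨y, hy, h⟩ := hP.inj (j + 3) c hc hc0 ⟨SC.mk G b, trivial, hb⟩
        have hy' : Lam ι hequi (j + 4) y ∈ Q (j + 4) := by
          rw [hQn (j + 4) (by omega)]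
          exact ⟨y, hy, rfl⟩
        refine ⟨⟨_, hy'⟩, (A1x.CC_d A1x.d_d hQ.toIsModel (j + 3) ⟨_, hy'⟩).trans
          (Subtype.ext ?_)⟩
        change SC.d G (j + 3) F (Lam ι hequi (j + 3 + 1) y) = _
        rw [Lam_d, ← hcx]
        exact congrArg _ h
      cohomology_three := by
        intro M _ _ _ φ hφ
        have hφ' : ∀ x : Q 4, φ (dP hQ.toIsModel 3 x) = 0 := fun x => by
          have := hφ x
          rwa [show ((A1x.CC (S := fun n => SC G n F) (d := fun n => SC.d G n F) A1x.d_d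
            hQ.toIsModel).d 4 3) x = dP hQ.toIsModel 3 x from A1x.CC_d A1x.d_d hQ.toIsModel 3 x]
            at this
        obtain ⟨ψ, hψ⟩ := hdE.cohomology_three M ((φ : Q 3 →ₗ[ZG G] M).comp w3.toLinearMap)
          (fun x => by
            rw [show ((A1x.CC (S := fun n => SC G n E) (d := fun n => SC.d G n E) A1x.d_d
              hP.toIsModel).d 4 3) x = dP hP.toIsModel 3 x from A1x.CC_d A1x.d_d hP.toIsModel 3 x]
            have h1 : w3 (dP hP.toIsModel 3 x) = dP hQ.toIsModel 3 (w4 x) := by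
              apply Subtype.ext
              exact (Lam_d (h := hequi) 3 (x : P 4).1).symm
            change φ (w3 (dP hP.toIsModel 3 x)) = 0
            rw [h1]
            exact hφ' _)
        refine ⟨(ψ : P 2 →ₗ[ZG G] M).comp ((κ 2).symm.toLinearMap.comp
          ((LinearMap.fst (ZG G) (P' 2) Z).comp v2.toLinearMap)), fun x => ?_⟩
        rw [show ((A1x.CC (S := fun n => SC G n F) (d := fun n => SC.d G n F) A1x.d_d
          hQ.toIsModel).d 3 2) x = dP hQ.toIsModel 2 x from A1x.CC_d A1x.d_d hQ.toIsModel 2 x]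
        obtain ⟨y, rfl⟩ := w3.surjective x
        have h1 := hψ y
        rw [show ((A1x.CC (S := fun n => SC G n E) (d := fun n => SC.d G n E) A1x.d_d
              hP.toIsModel).d 3 2) y = dP hP.toIsModel 2 y from A1x.CC_d A1x.d_d hP.toIsModel 2 y]
          at h1
        refine h1.trans ?_
        have h2 : v2 (dP hQ.toIsModel 2 (w3 y)) = (κ 2 (dP hP.toIsModel 2 y), 0) := by
          refine hv2 _ _ ?_
          exact Lam_d (h := hequi) 2 (y : P 3).1
        change ψ (dP hP.toIsModel 2 y) = ψ ((κ 2).symm (v2 (dP hQ.toIsModel 2 (w3 y))).1)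
        rw [h2, LinearEquiv.symm_apply_apply] }
  refine ⟨_, hdat.isD2, ⟨Function.update ν 2 (ν 2 + t), max N 3, fun i => ?_, fun i hi => ?_,
    sum_update ν t N hN⟩, fun Pr ⟨e⟩ => A1x.qi hQ.toIsModel Pr e⟩
  · change Nonempty (Q i ≃ₗ[ZG G] (Fin (Function.update ν 2 (ν 2 + t) i) → ZG G))
    by_cases hi : i = 2
    · subst hi
      rw [Function.update_self]
      obtain ⟨u⟩ := hν 2
      have e1 : Q 2 ≃ₗ[ZG G] (Fin (ν 2) → ZG G) × (Fin t → ZG G) :=
        v2.trans (LinearEquiv.prodCongr ((κ 2).symm.trans u) uZ)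
      exact ⟨(e1.trans (LinearEquiv.sumArrowLequivProdArrow (Fin (ν 2)) (Fin t) (ZG G)
        (ZG G)).symm).trans (LinearEquiv.funCongrLeft (ZG G) (ZG G) finSumFinEquiv.symm)⟩
    · rw [Function.update_of_ne hi]
      obtain ⟨u⟩ := hν i
      exact ⟨(LinearEquiv.ofEq _ _ (hQn i hi)).trans ((κ i).symm.trans u)⟩
  · have h1 : i ≠ 2 := by
      have := le_trans (le_max_right N 3) hi
      omega
    rw [Function.update_of_ne h1]
    exact hN i (le_trans (le_max_left N 3) hi)

end Vale.Agent.P246.R2.H696
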