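import Vale.Agent.P246.R2.H31.TopChi
import Vale.Agent.P246.R2.H429.Defs4

/-! # P246: assembly of the fourth wave (ROW TW6) -/

set_option linter.all false

namespace Vale.Agent.P246.R2.H696

open Topology Metric Set Vale.Agent.P246 Vale.Agent.P246.T Vale.Agent.P246.H429

/-- built sets are mapped to built sets by injective continuous maps -/
theorem built_map {X W : Type} [TopologicalSpace X] [TopologicalSpace W] (j : C(X, W))
    (hj : Function.Injective j) {C B : Set X} (h : Built C B) : Built (j '' C) (j '' B) := by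
  induction h with
  | base => exact Built.base
  | cell n Φ _ hatt ih =>
    refine Built.cell n (j.comp Φ) ih ⟨?_, ?_, ?_, ?_⟩
    · intro x hx
      exact mem_image_of_mem _ (hatt.bdry x hx)
    · rintro x hx ⟨a, ha, hax⟩
      have h1 : a = Φ x := hj hax
      exact hatt.int x hx (h1 ▸ ha)
    · intro x y hx hy hxy
      exact hatt.inj x y hx hy (hj hxy)
    · rw [hatt.eq, image_union, ContinuousMap.coe_comp, range_comp]

/-- spheres are cells -/
theorem built_sph {W : Type} [TopologicalSpace W] {C B : Set W} {t : ℕ} (hC : Built ∅ C)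
    (h : Sph C B t) : Built ∅ B := by
  induction h with
  | base => exact hC
  | cell Φ a _ _ _ hatt ih => exact Built.cell 2 Φ ih hatt

/-- the inclusion of `X` in the wedge -/
def jX (X : Type) [TopologicalSpace X] (y : X) (s : S2) (t : ℕ) : C(X, WedgeS2 X y s t) where
  toFun x := ⟨(x, fun _ => s), Or.inl fun _ => rfl⟩
  continuous_toFun := by fun_prop

theorem jX_inj (X : Type) [TopologicalSpace X] (y : X) (s : S2) (t : ℕ) :
    Function.Injective (jX X y s t) := fun a b h =>
  congrArg (fun q : WedgeS2 X y s t => q.1.1) h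

theorem jX_range (X : Type) [TopologicalSpace X] (y : X) (s : S2) (t : ℕ) :
    jX X y s t '' univ = inX X y s t := by
  rw [image_univ]
  ext q
  constructor
  · rintro ⟨x, rfl⟩ i
    rfl
  · intro h
    exact ⟨q.1.1, Subtype.ext (Prod.ext rfl (funext fun i => (h i).symm))⟩

theorem closed_inX (X : Type) [TopologicalSpace X] [T2Space X] (y : X) (s : S2) (t : ℕ) :
    IsClosed (inX X y s t) := by
  have h : inX X y s t = ⋂ i, {q : WedgeS2 X y s t | q.1.2 i = s} := by
    ext q
    simp [inX]
  rw [h]
  exact isClosed_iInter fun i => isClosed_eq (by fun_prop) continuous_const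

/-- ROW TW6 -/
theorem topWedge (hS : SpecSph) (hCv : SpecCovW) (hSC : SpecSCW) (hCh : SpecChW)
    (hAl : SpecAlgW) : SpecTopWedge := by
  intro G _ e hG X _ _ _ _ _ x y s t he hD hχ
  obtain ⟨hB, hcpt, hlpc⟩ := CWB.main X
  have hpc : PathConnectedSpace X := PathConnectedSpace.of_locallyPathConnectedSpace
  obtain ⟨E, _, _, _, p, hsc, hp, hH, hH3⟩ := AC.main G X x he hD
  obtain ⟨F, _, _, _, q, ι, hq, hemb, hran, hequi, -⟩ := hCv G X E p hp y s t
  have hcl := closed_inX X y s t
  have hSph := hS X y s t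
  have hscC : SimplyConnectedSpace (q ⁻¹' inX X y s t : Set F) := by
    have h1 : E ≃ₜ (range ι : Set F) := hemb.toHomeomorph
    have h2 : (range ι : Set F) ≃ₜ (q ⁻¹' inX X y s t : Set F) := Homeomorph.setCongr hran
    exact (h1.trans h2).symm.toHomotopyEquiv.simplyConnectedSpace
  have hscF : SimplyConnectedSpace F := hSC G (WedgeS2 X y s t) F q hq (inX X y s t) t hcl hSph hscC
  obtain ⟨P, hP, hν⟩ := H31T.modelN (p := p) MS.main CL.main fund hp (H31T.builtN_univ (X := X))
  obtain ⟨N, hN⟩ := H31T.exists_bound (X := X)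
  obtain ⟨D, hDD, hE, hreal⟩ := hAl hCh G (WedgeS2 X y s t) E F q hq (inX X y s t) t ι hcl hSph
    hemb hran hequi hH hH3 (fun n => A1f.free hp n) P _ N hP hν hN
  obtain ⟨Pr, hPr⟩ := hG D hDD _ hE (by rw [← H31T.cellChi_eq X N hN]; exact hχ)
  obtain ⟨ψ0, ψ1, ψ2, hψ⟩ := hreal Pr hPr
  have hBW : Built ∅ (univ : Set (WedgeS2 X y s t)) := by
    refine built_sph ?_ hSph
    have h := built_map (jX X y s t) (jX_inj X y s t) hB
    rw [image_empty, jX_range] at h
    exact h
  exact H31T.realise WC.main A2.main (YD.main fund) YC.main CY.main YP.main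
    (YH.main MS.main CL.main fund) EWb.main RV.main relHur DN.main CV.main WH.main hBW q hq Pr
    ψ0 ψ1 ψ2 hψ

end Vale.Agent.P246.R2.H696
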